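import Mathlib

/-!
# Metric differentiability of Lipschitz maps from `ℝⁿ` to metric spaces (Kirchheim), part 1

helper900, P233 project RCDA, block G8.
-/

open MeasureTheory Set Filter Metric Topology
open scoped NNReal ENNReal

namespace Vale.Agent.P233.H900

section basic

variable {E : Type*} [NormedAddCommGroup E] [NormedSpace ℝ E]

/-- The upper envelope of the derivatives of the functions `a k` at `u`. -/
noncomputable def Nu (a : ℕ → E → ℝ) (u v : E) : ℝ := ⨆ k, |fderiv ℝ (a k) u v|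

variable {a : ℕ → E → ℝ} {L : ℝ≥0}

lemma abs_fderiv_le {f : E → ℝ} (hf : LipschitzWith L f) (u v : E) :
    |fderiv ℝ f u v| ≤ L * ‖v‖ := by
  have h1 : ‖fderiv ℝ f u‖ ≤ L := norm_fderiv_le_of_lipschitz ℝ hf
  calc |fderiv ℝ f u v| = ‖fderiv ℝ f u v‖ := (Real.norm_eq_abs _).symm
    _ ≤ ‖fderiv ℝ f u‖ * ‖v‖ := (fderiv ℝ f u).le_opNorm v
    _ ≤ L * ‖v‖ := by gcongr

lemma bdd_Nu (ha : ∀ k, LipschitzWith L (a k)) (u v : E) :
    BddAbove (range fun k => |fderiv ℝ (a k) u v|) := by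
  refine ⟨L * ‖v‖, ?_⟩
  rintro _ ⟨k, rfl⟩
  exact abs_fderiv_le (ha k) u v

lemma le_Nu (ha : ∀ k, LipschitzWith L (a k)) (k : ℕ) (u v : E) :
    |fderiv ℝ (a k) u v| ≤ Nu a u v := le_ciSup (bdd_Nu ha u v) k

lemma Nu_le {u v : E} {C : ℝ} (h : ∀ k, |fderiv ℝ (a k) u v| ≤ C) : Nu a u v ≤ C := ciSup_le h

lemma Nu_nonneg (u v : E) : 0 ≤ Nu a u v := Real.iSup_nonneg fun _ => abs_nonneg _

lemma Nu_le_norm (ha : ∀ k, LipschitzWith L (a k)) (u v : E) : Nu a u v ≤ L * ‖v‖ :=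
  Nu_le fun k => abs_fderiv_le (ha k) u v

lemma Nu_add (ha : ∀ k, LipschitzWith L (a k)) (u v w : E) :
    Nu a u (v + w) ≤ Nu a u v + Nu a u w := by
  refine Nu_le fun k => ?_
  rw [map_add]
  exact (abs_add_le _ _).trans (add_le_add (le_Nu ha k u v) (le_Nu ha k u w))

lemma Nu_smul (c : ℝ) (u v : E) : Nu a u (c • v) = |c| * Nu a u v := by
  unfold Nu
  rw [Real.mul_iSup_of_nonneg (abs_nonneg c)]
  congr 1
  ext k
  rw [map_smul, smul_eq_mul, abs_mul]

lemma Nu_neg (u v : E) : Nu a u (-v) = Nu a u v := by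
  have := Nu_smul (a := a) (-1) u v
  simpa using this

/-- `Nu a u` as a seminorm. -/
noncomputable def NuS (ha : ∀ k, LipschitzWith L (a k)) (u : E) : Seminorm ℝ E :=
  Seminorm.of (Nu a u) (Nu_add ha u) (fun c v => by rw [Nu_smul, Real.norm_eq_abs])

@[simp] lemma NuS_apply (ha : ∀ k, LipschitzWith L (a k)) (u v : E) : NuS ha u v = Nu a u v := rfl

lemma Nu_sub_le (ha : ∀ k, LipschitzWith L (a k)) (u v w : E) :
    Nu a u v ≤ Nu a u w + L * ‖v - w‖ := by
  have h := Nu_add ha u w (v - w)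
  rw [add_sub_cancel] at h
  linarith [Nu_le_norm ha u (v - w)]

lemma continuous_Nu (ha : ∀ k, LipschitzWith L (a k)) (u : E) : Continuous (Nu a u) := by
  have : LipschitzWith L (Nu a u) := by
    refine LipschitzWith.of_le_add_mul L fun v w => ?_
    rw [dist_eq_norm]
    exact Nu_sub_le ha u v w
  exact this.continuous

lemma measurable_Nu [MeasurableSpace E] [BorelSpace E] (v : E) : Measurable fun u => Nu a u v := by
  unfold Nu
  refine Measurable.iSup fun k => ?_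
  exact continuous_abs.measurable.comp (measurable_fderiv_apply_const ℝ (a k) v)

end basic

section lower

variable {E : Type*} [NormedAddCommGroup E] [NormedSpace ℝ E] [FiniteDimensional ℝ E]
variable {a : ℕ → E → ℝ} {L : ℝ≥0}

/-- finitely many of the functionals suffice up to `ε`. -/
lemma exists_finset (ha : ∀ k, LipschitzWith L (a k)) (u : E) {ε : ℝ} (hε : 0 < ε) :
    ∃ F : Finset ℕ, ∀ x : E, ∃ k ∈ F, Nu a u x ≤ |fderiv ℝ (a k) u x| + ε * ‖x‖ := by
  have : ProperSpace E := FiniteDimensional.proper ℝ E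
  have hK : IsCompact (sphere (0 : E) 1) := isCompact_sphere 0 1
  let V : ℕ → Set E := fun k => {x | Nu a u x < |fderiv ℝ (a k) u x| + ε}
  have hV : ∀ k, IsOpen (V k) := fun k => by
    refine isOpen_lt (continuous_Nu ha u) ?_
    exact ((continuous_abs.comp (fderiv ℝ (a k) u).continuous).add continuous_const)
  have hcov : sphere (0 : E) 1 ⊆ ⋃ k, V k := by
    intro x _
    obtain ⟨k, hk⟩ := exists_lt_of_lt_ciSup (show Nu a u x - ε < ⨆ k, |fderiv ℝ (a k) u x| by
      change Nu a u x - ε < Nu a u x; linarith)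
    exact mem_iUnion.2 ⟨k, show Nu a u x < |fderiv ℝ (a k) u x| + ε by linarith⟩
  obtain ⟨F, hF⟩ := hK.elim_finite_subcover V hV hcov
  refine ⟨insert 0 F, fun x => ?_⟩
  rcases eq_or_ne x 0 with rfl | hx
  · refine ⟨0, Finset.mem_insert_self _ _, ?_⟩
    have : Nu a u 0 ≤ L * ‖(0 : E)‖ := Nu_le_norm ha u 0
    simpa using this
  · have hx' : 0 < ‖x‖ := norm_pos_iff.2 hx
    have hmem : (‖x‖⁻¹ • x) ∈ sphere (0 : E) 1 := by
      rw [mem_sphere_zero_iff_norm, norm_smul, norm_inv, norm_norm, inv_mul_cancel₀ hx'.ne']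
    obtain ⟨k, hk⟩ := mem_iUnion.1 (hF hmem)
    obtain ⟨hkF, hk⟩ := mem_iUnion.1 hk
    refine ⟨k, Finset.mem_insert_of_mem hkF, ?_⟩
    change Nu a u (‖x‖⁻¹ • x) < |fderiv ℝ (a k) u (‖x‖⁻¹ • x)| + ε at hk
    rw [Nu_smul, map_smul, smul_eq_mul, abs_mul, abs_inv, abs_norm] at hk
    have h2 := mul_lt_mul_of_pos_left hk hx'
    rw [mul_add, ← mul_assoc, ← mul_assoc, mul_inv_cancel₀ hx'.ne', one_mul, one_mul] at h2
    linarith

lemma lower (ha : ∀ k, LipschitzWith L (a k)) {u : E} (hd : ∀ k, DifferentiableAt ℝ (a k) u)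
    {ε : ℝ} (hε : 0 < ε) : ∃ ρ > 0, ∀ v w : E, ‖v - u‖ < ρ → ‖w - u‖ < ρ →
      ∃ k, Nu a u (v - w) ≤ |a k v - a k w| + ε * (‖v - u‖ + ‖w - u‖) := by
  obtain ⟨F, hF⟩ := exists_finset ha u (half_pos hε)
  have h1 : ∀ᶠ v in 𝓝 u, ∀ k ∈ F, ‖a k v - a k u - fderiv ℝ (a k) u (v - u)‖ ≤
      ε / 2 * ‖v - u‖ := by
    rw [Filter.eventually_all_finset]
    intro k _
    exact ((hd k).hasFDerivAt.isLittleO).def (half_pos hε)
  obtain ⟨ρ, hρ, hball⟩ := Metric.eventually_nhds_iff.1 h1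
  refine ⟨ρ, hρ, fun v w hv hw => ?_⟩
  obtain ⟨k, hkF, hk⟩ := hF (v - w)
  refine ⟨k, ?_⟩
  have hv' := hball (y := v) (by rwa [dist_eq_norm]) k hkF
  have hw' := hball (y := w) (by rwa [dist_eq_norm]) k hkF
  rw [Real.norm_eq_abs] at hv' hw'
  have e : fderiv ℝ (a k) u (v - w) = fderiv ℝ (a k) u (v - u) - fderiv ℝ (a k) u (w - u) := by
    rw [← map_sub]; congr 1; abel
  have h3 : |fderiv ℝ (a k) u (v - w)| ≤ |a k v - a k w| + ε / 2 * (‖v - u‖ + ‖w - u‖) := by
    rw [e]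
    set p := fderiv ℝ (a k) u (v - u)
    set q := fderiv ℝ (a k) u (w - u)
    have e2 : p - q = (a k v - a k w) - (a k v - a k u - p) + (a k w - a k u - q) := by ring
    rw [e2]
    calc |(a k v - a k w) - (a k v - a k u - p) + (a k w - a k u - q)|
        ≤ |(a k v - a k w) - (a k v - a k u - p)| + |a k w - a k u - q| := abs_add_le _ _
      _ ≤ |a k v - a k w| + |a k v - a k u - p| + |a k w - a k u - q| := by
          gcongr; exact abs_sub _ _
      _ ≤ _ := by linarith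
  have h4 : ‖v - w‖ ≤ ‖v - u‖ + ‖w - u‖ := by
    have : v - w = (v - u) - (w - u) := by abel
    rw [this]; exact norm_sub_le _ _
  nlinarith

end lower

section upper

variable {E : Type*} [NormedAddCommGroup E] [NormedSpace ℝ E] [FiniteDimensional ℝ E]
  [MeasurableSpace E] [BorelSpace E] {μ : Measure E} [μ.IsAddHaarMeasure]
variable {a : ℕ → E → ℝ} {L : ℝ≥0}

/-- Mean value inequality with averages over small balls: no integration along segments. -/
lemma avg_bound {f : E → ℝ} (hf : LipschitzWith L f) {ρ : ℝ} (hρ : 0 < ρ) {v w : E} {Φ : E → ℝ}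
    (hΦm : LocallyIntegrable Φ μ) (hΦ : ∀ z, |fderiv ℝ f z (v - w)| ≤ Φ z) {C : ℝ}
    (hC : ∀ t ∈ Icc (0 : ℝ) 1, ⨍ z in closedBall (w + t • (v - w)) ρ, Φ z ∂μ ≤ C) :
    |f v - f w| ≤ 2 * L * ρ + C := by
  have : ProperSpace E := FiniteDimensional.proper ℝ E
  set B : Set E := closedBall 0 ρ with hB
  have hBm : MeasurableSet B := isClosed_closedBall.measurableSet
  have hBfin : μ B < ⊤ := measure_closedBall_lt_top
  have hBpos : 0 < μ B := measure_closedBall_pos μ 0 hρ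
  have hBr : 0 < μ.real B := ENNReal.toReal_pos hBpos.ne' hBfin.ne
  set g : ℝ → ℝ := fun t => ∫ ζ in B, f (w + t • (v - w) + ζ) ∂μ with hg
  -- a.e. differentiability
  have hae : ∀ᵐ z ∂μ, DifferentiableAt ℝ f z := hf.ae_differentiableAt
  have hcont : ∀ c : E, Continuous fun ζ => f (c + ζ) := fun c =>
    hf.continuous.comp (continuous_const.add continuous_id)
  have hint : ∀ c : E, IntegrableOn (fun ζ => f (c + ζ)) B μ := fun c =>
    (hcont c).continuousOn.integrableOn_compact (isCompact_closedBall 0 ρ)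
  have hderiv : ∀ t : ℝ, HasDerivAt g
      (∫ ζ in B, fderiv ℝ f (w + t • (v - w) + ζ) (v - w) ∂μ) t := by
    intro t
    have key := hasDerivAt_integral_of_dominated_loc_of_lip (μ := μ.restrict B)
      (F := fun t ζ => f (w + t • (v - w) + ζ))
      (F' := fun ζ => fderiv ℝ f (w + t • (v - w) + ζ) (v - w))
      (x₀ := t) (bound := fun _ => L * ‖v - w‖) (s := univ) (Filter.univ_mem)
      (Eventually.of_forall fun s => (hcont _).aestronglyMeasurable)
      (hint _)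
      ?_ ?_ ?_ ?_
    · exact key.2
    · refine Measurable.aestronglyMeasurable ?_
      exact (measurable_fderiv_apply_const ℝ f (v - w)).comp (measurable_const_add _)
    · refine Eventually.of_forall fun ζ => ?_
      refine LipschitzOnWith.of_dist_le_mul fun x _ y _ => ?_
      refine (hf.dist_le_mul _ _).trans ?_
      rw [dist_add_right, dist_add_left, dist_eq_norm, ← sub_smul, norm_smul, ← dist_eq_norm]
      rw [Real.coe_nnabs, abs_of_nonneg (by positivity)]
      apply le_of_eq; ring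
    · exact integrableOn_const hBfin.ne
    · refine ae_restrict_of_ae ?_
      have hq : ∀ᵐ ζ ∂μ, DifferentiableAt ℝ f (w + t • (v - w) + ζ) :=
        (measurePreserving_add_left μ (w + t • (v - w))).quasiMeasurePreserving.ae hae
      filter_upwards [hq] with ζ hζ
      have h1 : HasDerivAt (fun s : ℝ => w + s • (v - w) + ζ) (v - w) t := by
        have := (((hasDerivAt_id t).smul_const (v - w)).const_add w).add_const ζ
        simpa using this
      exact hζ.hasFDerivAt.comp_hasDerivAt t h1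
  have hbound : ∀ t ∈ Ico (0 : ℝ) 1,
      ‖∫ ζ in B, fderiv ℝ f (w + t • (v - w) + ζ) (v - w) ∂μ‖ ≤ μ.real B * C := by
    intro t ht
    set c := w + t • (v - w) with hc
    have hemb : MeasurableEmbedding (fun ζ : E => c + ζ) := measurableEmbedding_addLeft c
    have hpre : (fun ζ : E => c + ζ) ⁻¹' closedBall c ρ = B := by
      ext ζ; simp [hB, mem_closedBall, dist_eq_norm]
    have hI : IntegrableOn Φ (closedBall c ρ) μ := hΦm.integrableOn_isCompact (isCompact_closedBall c ρ)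
    have hI' : IntegrableOn (fun ζ => Φ (c + ζ)) B μ := by
      rw [← hpre]
      exact ((measurePreserving_add_left μ c).integrableOn_comp_preimage hemb).2 hI
    have heq : ∫ ζ in B, Φ (c + ζ) ∂μ = ∫ z in closedBall c ρ, Φ z ∂μ := by
      rw [← hpre]
      exact (measurePreserving_add_left μ c).setIntegral_preimage_emb hemb Φ (closedBall c ρ)
    have hvol : μ.real (closedBall c ρ) = μ.real B := by
      unfold Measure.real
      rw [hB, Measure.addHaar_closedBall_center μ c ρ]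
    calc ‖∫ ζ in B, fderiv ℝ f (c + ζ) (v - w) ∂μ‖
        ≤ ∫ ζ in B, Φ (c + ζ) ∂μ := norm_integral_le_of_norm_le hI'
            (Eventually.of_forall fun ζ => by rw [Real.norm_eq_abs]; exact hΦ _)
      _ = ∫ z in closedBall c ρ, Φ z ∂μ := heq
      _ = μ.real (closedBall c ρ) * ⨍ z in closedBall c ρ, Φ z ∂μ := by
          rw [setAverage_eq, smul_eq_mul, ← mul_assoc, hvol, mul_inv_cancel₀ hBr.ne', one_mul]
      _ ≤ μ.real B * C := by
          rw [hvol]; gcongr; exact hC t ⟨ht.1, ht.2.le⟩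
  have hmv : ‖g 1 - g 0‖ ≤ μ.real B * C :=
    norm_image_sub_le_of_norm_deriv_le_segment_01' (f' := fun t =>
      ∫ ζ in B, fderiv ℝ f (w + t • (v - w) + ζ) (v - w) ∂μ)
      (fun t _ => (hderiv t).hasDerivWithinAt) hbound
  have hclose : ∀ c : E, |∫ ζ in B, f (c + ζ) ∂μ - μ.real B * f c| ≤ μ.real B * (L * ρ) := by
    intro c
    have e1 : μ.real B * f c = ∫ _ζ in B, f c ∂μ := by
      rw [setIntegral_const, smul_eq_mul]
    have hci : IntegrableOn (fun _ : E => f c) B μ := integrableOn_const hBfin.ne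
    rw [e1, ← integral_sub (hint c) hci, ← Real.norm_eq_abs]
    have := norm_setIntegral_le_of_norm_le_const (μ := μ) (s := B) (C := L * ρ)
      (f := fun ζ => f (c + ζ) - f c) hBfin ?_
    · rw [mul_comm] at this; exact this
    · intro ζ hζ
      rw [Real.norm_eq_abs, ← Real.dist_eq]
      refine (hf.dist_le_mul _ _).trans ?_
      have : dist (c + ζ) c ≤ ρ := by
        have := mem_closedBall.1 hζ
        simpa [dist_eq_norm] using this
      gcongr
  have e1 : g 1 = ∫ ζ in B, f (v + ζ) ∂μ := by simp [hg]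
  have e0 : g 0 = ∫ ζ in B, f (w + ζ) ∂μ := by simp [hg]
  have hv := hclose v
  have hw := hclose w
  rw [← e1] at hv
  rw [← e0] at hw
  rw [Real.norm_eq_abs] at hmv
  have htot : μ.real B * |f v - f w| ≤ μ.real B * (2 * L * ρ + C) := by
    rw [← abs_of_pos hBr, ← abs_mul, abs_of_pos hBr]
    have : μ.real B * (f v - f w) = -(g 1 - μ.real B * f v) + (g 1 - g 0) +
        (g 0 - μ.real B * f w) := by ring
    rw [this]
    calc |-(g 1 - μ.real B * f v) + (g 1 - g 0) + (g 0 - μ.real B * f w)|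
        ≤ |-(g 1 - μ.real B * f v) + (g 1 - g 0)| + |g 0 - μ.real B * f w| := abs_add_le _ _
      _ ≤ |-(g 1 - μ.real B * f v)| + |g 1 - g 0| + |g 0 - μ.real B * f w| := by
          gcongr; exact abs_add_le _ _
      _ ≤ μ.real B * (L * ρ) + μ.real B * C + μ.real B * (L * ρ) := by
          rw [abs_neg]; gcongr
      _ = _ := by ring
  exact le_of_mul_le_mul_left htot hBr

omit [μ.IsAddHaarMeasure] in
lemma leb_aux [IsUnifLocDoublingMeasure μ] [IsLocallyFiniteMeasure μ] {Φ : E → ℝ}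
    (hΦ : LocallyIntegrable Φ μ) : ∀ᵐ u ∂μ, ∀ m : ℕ, ∀ η > 0, ∃ δ > 0, ∀ r ∈ Ioo (0 : ℝ) δ,
      ∀ c : E, ‖c - u‖ ≤ r → ⨍ z in closedBall c (r / (m + 1)), ‖Φ z - Φ u‖ ∂μ ≤ η := by
  have h1 : ∀ᵐ u ∂μ, ∀ m : ℕ, ∀ {ι : Type _} {l : Filter ι} (w : ι → E) (δ : ι → ℝ)
      (_ : Tendsto δ l (𝓝[>] 0)) (_ : ∀ᶠ j in l, u ∈ closedBall (w j) (((m : ℝ) + 1) * δ j)),
      Tendsto (fun j => ⨍ y in closedBall (w j) (δ j), ‖Φ y - Φ u‖ ∂μ) l (𝓝 0) :=
    ae_all_iff.2 fun m => IsUnifLocDoublingMeasure.ae_tendsto_average_norm_sub μ hΦ ((m : ℝ) + 1)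
  filter_upwards [h1] with u hu m η hη
  let l : Filter (ℝ × E) := ((𝓝[>] (0 : ℝ)) ×ˢ (⊤ : Filter E)) ⊓ 𝓟 {p : ℝ × E | ‖p.2 - u‖ ≤ p.1}
  have hm : (0 : ℝ) < m + 1 := by positivity
  have hl0 : Tendsto (fun p : ℝ × E => p.1) l (𝓝[>] 0) := tendsto_fst.mono_left inf_le_left
  have hδ : Tendsto (fun p : ℝ × E => p.1 / ((m : ℝ) + 1)) l (𝓝[>] 0) := by
    rw [tendsto_nhdsWithin_iff] at hl0 ⊢
    constructor
    · have := hl0.1.div_const ((m : ℝ) + 1)
      simpa using this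
    · filter_upwards [hl0.2] with p hp
      exact div_pos hp hm
  have hmem : ∀ᶠ p : ℝ × E in l, u ∈ closedBall p.2 (((m : ℝ) + 1) * (p.1 / ((m : ℝ) + 1))) := by
    have : ∀ᶠ p : ℝ × E in l, p ∈ {p : ℝ × E | ‖p.2 - u‖ ≤ p.1} :=
      Filter.Eventually.filter_mono inf_le_right (eventually_mem_principal _)
    filter_upwards [this] with p hp
    rw [mul_div_cancel₀ _ hm.ne', mem_closedBall, dist_comm, dist_eq_norm]
    exact hp
  have hT := hu m (l := l) (fun p => p.2) (fun p => p.1 / ((m : ℝ) + 1)) hδ hmem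
  have hev : ∀ᶠ p : ℝ × E in l,
      ⨍ y in closedBall p.2 (p.1 / ((m : ℝ) + 1)), ‖Φ y - Φ u‖ ∂μ ≤ η :=
    (hT.eventually (gt_mem_nhds hη)).mono fun p hp => le_of_lt hp
  rw [Filter.eventually_inf_principal, Filter.eventually_prod_iff] at hev
  obtain ⟨pa, hpa, pb, hpb, hab⟩ := hev
  rw [eventually_top] at hpb
  obtain ⟨δ, hδpos, hδ'⟩ := mem_nhdsGT_iff_exists_Ioo_subset.1 hpa
  refine ⟨δ, hδpos, fun r hr c hc => ?_⟩
  exact hab (hδ' hr) (hpb c) hc

omit [MeasurableSpace E] [BorelSpace E] in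
/-- finite nets of the unit ball inside a dense sequence -/
lemma exists_net {q : ℕ → E} (hq : DenseRange q) {ε : ℝ} (hε : 0 < ε) :
    ∃ F : Finset ℕ, ∀ x : E, ‖x‖ ≤ 1 → ∃ j ∈ F, ‖x - q j‖ < ε := by
  have : ProperSpace E := FiniteDimensional.proper ℝ E
  obtain ⟨F, hF⟩ := (isCompact_closedBall (0 : E) 1).elim_finite_subcover
    (fun j => ball (q j) ε) (fun j => isOpen_ball) (fun x _ => by
      obtain ⟨j, hj⟩ := hq.exists_dist_lt x hε
      exact mem_iUnion.2 ⟨j, hj⟩)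
  refine ⟨F, fun x hx => ?_⟩
  obtain ⟨j, hj⟩ := mem_iUnion.1 (hF (by simpa using hx : x ∈ closedBall (0 : E) 1))
  obtain ⟨hjF, hj⟩ := mem_iUnion.1 hj
  exact ⟨j, hjF, by rwa [mem_ball, dist_eq_norm] at hj⟩

lemma locInt_Nu (ha : ∀ k, LipschitzWith L (a k)) (v : E) :
    LocallyIntegrable (fun u => Nu a u v) μ := by
  have hc : LocallyIntegrable (fun _ : E => (L : ℝ) * ‖v‖) μ := locallyIntegrable_const _
  refine hc.mono (measurable_Nu v).aestronglyMeasurable (Eventually.of_forall fun u => ?_)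
  rw [Real.norm_of_nonneg (Nu_nonneg u v), Real.norm_of_nonneg (by positivity)]
  exact Nu_le_norm ha u v

/-- Upper bound: for a.e. `u`, `|a k v - a k w| ≤ N_u (v - w) + o(|v - u| + |w - u|)` uniformly in
`k`. -/
lemma upper (ha : ∀ k, LipschitzWith L (a k)) : ∀ᵐ u ∂μ, ∀ ε > 0, ∃ ρ > 0, ∀ v w : E,
    ‖v - u‖ < ρ → ‖w - u‖ < ρ →
      ∀ k, |a k v - a k w| ≤ Nu a u (v - w) + ε * (‖v - u‖ + ‖w - u‖) := by
  have : ProperSpace E := FiniteDimensional.proper ℝ E
  obtain ⟨q, hq⟩ := TopologicalSpace.exists_dense_seq E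
  have hleb : ∀ᵐ u ∂μ, ∀ j : ℕ, ∀ m : ℕ, ∀ η > 0, ∃ δ > 0, ∀ r ∈ Ioo (0 : ℝ) δ,
      ∀ c : E, ‖c - u‖ ≤ r →
        ⨍ z in closedBall c (r / (m + 1)), ‖Nu a z (q j) - Nu a u (q j)‖ ∂μ ≤ η :=
    ae_all_iff.2 fun j => leb_aux (locInt_Nu ha (q j))
  filter_upwards [hleb] with u hu ε hε
  -- constants
  obtain ⟨m, hm⟩ := exists_nat_gt (2 * (L : ℝ) / (ε / 4))
  have hL0 : (0 : ℝ) ≤ L := L.2
  have hm1 : (0 : ℝ) < m + 1 := by positivity
  have hm2 : 2 * (L : ℝ) / (m + 1) ≤ ε / 4 := by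
    rw [div_lt_iff₀ (by positivity)] at hm
    rw [div_le_iff₀ hm1]
    nlinarith
  obtain ⟨ε', hε', hε'L⟩ : ∃ ε' > 0, 2 * (L : ℝ) * ε' ≤ ε / 4 := by
    refine ⟨ε / (8 * (L + 1)), by positivity, ?_⟩
    rw [mul_div_assoc', div_le_iff₀ (by positivity)]
    nlinarith
  obtain ⟨F, hF⟩ := exists_net hq hε'
  choose δ hδ hδ' using fun j => hu j m (ε / 4) (by positivity)
  have hev : ∀ᶠ δ₀ in 𝓝[>] (0 : ℝ), ∀ j ∈ F, δ₀ < δ j :=
    (Filter.eventually_all_finset F).2 fun j _ =>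
      mem_of_superset (Ioo_mem_nhdsGT (hδ j)) (fun x hx => hx.2)
  obtain ⟨δ₀, hδ₀, hδ₀pos⟩ := (hev.and self_mem_nhdsWithin).exists
  have hδ₀pos : 0 < δ₀ := hδ₀pos
  refine ⟨δ₀ / 2, half_pos hδ₀pos, fun v w hv hw k => ?_⟩
  set r := ‖v - u‖ + ‖w - u‖ with hr
  have hr0 : 0 ≤ r := by positivity
  rcases hr0.eq_or_lt with h0 | hrpos
  · have h1 : ‖v - u‖ = 0 := by nlinarith [norm_nonneg (v - u), norm_nonneg (w - u)]
    have h2 : ‖w - u‖ = 0 := by nlinarith [norm_nonneg (v - u), norm_nonneg (w - u)]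
    rw [norm_eq_zero, sub_eq_zero] at h1 h2
    subst h1
    rw [h2, sub_self, abs_zero, ← h0, mul_zero, add_zero]
    exact Nu_nonneg _ _
  have hrlt : r < δ₀ := by linarith
  have hvw : ‖v - w‖ ≤ r := by
    have : v - w = (v - u) - (w - u) := by abel
    rw [this]; exact norm_sub_le _ _
  obtain ⟨j, hjF, hj⟩ := hF (r⁻¹ • (v - w)) (by
    rw [norm_smul, norm_inv, Real.norm_of_nonneg hr0, inv_mul_le_iff₀ hrpos, mul_one]
    exact hvw)
  set x := r⁻¹ • (v - w) with hx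
  have hvx : v - w = r • x := by rw [hx, smul_smul, mul_inv_cancel₀ hrpos.ne', one_smul]
  have hpt : ∀ z, Nu a z (v - w) ≤ r * ‖Nu a z (q j) - Nu a u (q j)‖ +
      (Nu a u (v - w) + 2 * L * ε' * r) := by
    intro z
    have e1 : Nu a z (v - w) = r * Nu a z x := by rw [hvx, Nu_smul, abs_of_pos hrpos]
    have e2 : Nu a u (v - w) = r * Nu a u x := by rw [hvx, Nu_smul, abs_of_pos hrpos]
    have h1 := Nu_sub_le ha z x (q j)
    have h2 := Nu_sub_le ha u (q j) x
    rw [norm_sub_rev] at h2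
    have h3 : Nu a z (q j) ≤ ‖Nu a z (q j) - Nu a u (q j)‖ + Nu a u (q j) := by
      have := Real.le_norm_self (Nu a z (q j) - Nu a u (q j))
      linarith
    have h4 : (L : ℝ) * ‖x - q j‖ ≤ L * ε' := by gcongr
    rw [e1, e2]
    have h5 : Nu a z x ≤ ‖Nu a z (q j) - Nu a u (q j)‖ + Nu a u x + 2 * L * ε' := by linarith
    calc r * Nu a z x ≤ r * (‖Nu a z (q j) - Nu a u (q j)‖ + Nu a u x + 2 * L * ε') := by gcongr
      _ = _ := by ring
  have hmain := avg_bound (μ := μ) (ha k) (ρ := r / (m + 1)) (div_pos hrpos hm1) (v := v) (w := w)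
    (Φ := fun z => Nu a z (v - w)) (locInt_Nu ha (v - w)) (fun z => le_Nu ha k z (v - w))
    (C := r * (ε / 4) + (Nu a u (v - w) + 2 * L * ε' * r)) ?_
  · refine hmain.trans ?_
    have h1 : 2 * (L : ℝ) * (r / (m + 1)) = (2 * (L : ℝ) / (m + 1)) * r := by ring
    rw [h1]
    have h2 : 2 * (L : ℝ) / (m + 1) * r ≤ ε / 4 * r := by gcongr
    have h3 : 2 * (L : ℝ) * ε' * r ≤ ε / 4 * r := by gcongr
    nlinarith
  · intro t ht
    have hc : ‖w + t • (v - w) - u‖ ≤ r := by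
      have : w + t • (v - w) - u = (1 - t) • (w - u) + t • (v - u) := by
        rw [sub_smul, one_smul, smul_sub, smul_sub, smul_sub]; abel
      rw [this]
      calc ‖(1 - t) • (w - u) + t • (v - u)‖ ≤ ‖(1 - t) • (w - u)‖ + ‖t • (v - u)‖ :=
            norm_add_le _ _
        _ = (1 - t) * ‖w - u‖ + t * ‖v - u‖ := by
            rw [norm_smul, norm_smul, Real.norm_of_nonneg ht.1,
              Real.norm_of_nonneg (by linarith [ht.2])]
        _ ≤ 1 * ‖w - u‖ + 1 * ‖v - u‖ := by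
            gcongr
            · linarith [ht.1]
            · exact ht.2
        _ = r := by rw [hr]; ring
    set c := w + t • (v - w) with hcdef
    have hav := hδ' j r ⟨hrpos, hrlt.trans (hδ₀ j hjF)⟩ c hc
    set A := closedBall c (r / (m + 1)) with hA
    have hAfin : μ A < ⊤ := measure_closedBall_lt_top
    have hApos : 0 < μ A := measure_closedBall_pos μ c (div_pos hrpos hm1)
    have hAr : 0 < μ.real A := ENNReal.toReal_pos hApos.ne' hAfin.ne
    have hcomp : IsCompact A := isCompact_closedBall c _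
    have i1 : IntegrableOn (fun z => Nu a z (v - w)) A μ :=
      (locInt_Nu ha (v - w)).integrableOn_isCompact hcomp
    have i2 : IntegrableOn (fun z => ‖Nu a z (q j) - Nu a u (q j)‖) A μ :=
      (((locInt_Nu ha (q j)).sub (locallyIntegrable_const _)).integrableOn_isCompact hcomp).norm
    have i3 : IntegrableOn (fun z => r * ‖Nu a z (q j) - Nu a u (q j)‖ +
        (Nu a u (v - w) + 2 * L * ε' * r)) A μ :=
      (i2.const_mul r).add (integrableOn_const hAfin.ne)
    have hI := integral_mono i1 i3 hpt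
    rw [integral_add (i2.const_mul r) (integrableOn_const hAfin.ne), integral_const_mul,
      setIntegral_const, smul_eq_mul] at hI
    rw [setAverage_eq, smul_eq_mul] at hav ⊢
    rw [inv_mul_le_iff₀ hAr] at hav ⊢
    calc ∫ z in A, Nu a z (v - w) ∂μ ≤ _ := hI
      _ ≤ r * (μ.real A * (ε / 4)) + μ.real A * (Nu a u (v - w) + 2 * L * ε' * r) := by gcongr
      _ = _ := by ring

end upper

section md

variable {E : Type*} [NormedAddCommGroup E] [NormedSpace ℝ E] [FiniteDimensional ℝ E]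
  [MeasurableSpace E] [BorelSpace E] {μ : Measure E} [μ.IsAddHaarMeasure]
  {M : Type*} [PseudoMetricSpace M]

/-- `h` (considered on `S` only) is metrically differentiable at `u` with metric differential `N`
(two point form). -/
def Md (S : Set E) (h : E → M) (u : E) (N : E → ℝ) : Prop :=
  ∀ ε > 0, ∃ ρ > 0, ∀ v ∈ S, ∀ w ∈ S, ‖v - u‖ < ρ → ‖w - u‖ < ρ →
    |dist (h v) (h w) - N (v - w)| ≤ ε * (‖v - u‖ + ‖w - u‖)

omit [MeasurableSpace E] [BorelSpace E] in
/-- A Lipschitz map on a subset of a finite dimensional space has a sequence of globally defined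
real Lipschitz functions that computes its distances. -/
lemma exists_family {S : Set E} {h : E → M} {L : ℝ≥0} (hh : LipschitzOnWith L h S) :
    ∃ a : ℕ → E → ℝ, (∀ k, LipschitzWith L (a k)) ∧
      (∀ v ∈ S, ∀ w ∈ S, ∀ k, |a k v - a k w| ≤ dist (h v) (h w)) ∧
      (∀ v ∈ S, ∀ w ∈ S, ∀ ε > 0, ∃ k, dist (h v) (h w) - ε ≤ |a k v - a k w|) := by
  rcases S.eq_empty_or_nonempty with rfl | hne
  · exact ⟨fun _ _ => 0, fun _ => (LipschitzWith.const 0).weaken (by simp), by simp, by simp⟩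
  have : ProperSpace E := FiniteDimensional.proper ℝ E
  obtain ⟨D, hDS, hDc, hSD⟩ := TopologicalSpace.IsSeparable.exists_countable_dense_subset
    (TopologicalSpace.IsSeparable.of_separableSpace S)
  have hDne : D.Nonempty := by
    by_contra hcon
    rw [not_nonempty_iff_eq_empty] at hcon
    rw [hcon, closure_empty] at hSD
    exact hne.ne_empty (subset_empty_iff.1 hSD)
  obtain ⟨s, hs⟩ := hDc.exists_eq_range hDne
  have hsS : ∀ k, s k ∈ S := fun k => hDS (hs ▸ mem_range_self k)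
  have hlip : ∀ k, LipschitzOnWith L (fun v => dist (h v) (h (s k))) S := fun k => by
    refine LipschitzOnWith.of_dist_le_mul fun v hv w hw => ?_
    refine le_trans ?_ (hh.dist_le_mul v hv w hw)
    rw [Real.dist_eq]
    exact abs_dist_sub_le _ _ _
  choose a ha hae using fun k => (hlip k).extend_real
  refine ⟨a, ha, fun v hv w hw k => ?_, fun v hv w hw ε hε => ?_⟩
  · rw [← hae k hv, ← hae k hw]
    exact abs_dist_sub_le _ _ _
  · -- choose `s k` close to `w`
    obtain ⟨y, hyD, hy⟩ := Metric.mem_closure_iff.1 (hSD hw) (ε / (2 * (L + 1)))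
      (by positivity)
    rw [hs] at hyD
    obtain ⟨k, rfl⟩ := hyD
    refine ⟨k, ?_⟩
    have h1 : dist (h w) (h (s k)) ≤ ε / 2 := by
      refine (hh.dist_le_mul w hw (s k) (hsS k)).trans ?_
      have hL0 : (0 : ℝ) ≤ L := L.2
      calc (L : ℝ) * dist w (s k) ≤ L * (ε / (2 * (L + 1))) := by gcongr
        _ ≤ ε / 2 := by
          rw [mul_div_assoc', div_le_iff₀ (by positivity)]
          nlinarith
    rw [← hae k hv, ← hae k hw]
    have h2 := dist_triangle (h v) (h (s k)) (h w)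
    rw [dist_comm (h (s k)) (h w)] at h2
    refine le_trans ?_ (le_abs_self _)
    linarith

/-- **Metric differentiability** (Kirchheim), two point form, on an arbitrary set. -/
theorem ae_md {S : Set E} {h : E → M} {L : ℝ≥0} {a : ℕ → E → ℝ}
    (ha : ∀ k, LipschitzWith L (a k))
    (h1 : ∀ v ∈ S, ∀ w ∈ S, ∀ k, |a k v - a k w| ≤ dist (h v) (h w))
    (h2 : ∀ v ∈ S, ∀ w ∈ S, ∀ ε > 0, ∃ k, dist (h v) (h w) - ε ≤ |a k v - a k w|) :
    ∀ᵐ u ∂μ, Md S h u (Nu a u) := by
  have hdiff : ∀ᵐ u ∂μ, ∀ k, DifferentiableAt ℝ (a k) u :=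
    ae_all_iff.2 fun k => (ha k).ae_differentiableAt
  filter_upwards [hdiff, upper (μ := μ) ha] with u hd hu ε hε
  obtain ⟨ρ₁, hρ₁, hl⟩ := lower ha hd hε
  obtain ⟨ρ₂, hρ₂, hu⟩ := hu ε hε
  refine ⟨min ρ₁ ρ₂, lt_min hρ₁ hρ₂, fun v hv w hw hvu hwu => ?_⟩
  rw [abs_le]
  constructor
  · obtain ⟨k, hk⟩ := hl v w (hvu.trans_le (min_le_left _ _)) (hwu.trans_le (min_le_left _ _))
    have := h1 v hv w hw k
    linarith
  · have : dist (h v) (h w) ≤ Nu a u (v - w) + ε * (‖v - u‖ + ‖w - u‖) := by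
      refine le_of_forall_pos_le_add fun η hη => ?_
      obtain ⟨k, hk⟩ := h2 v hv w hw η hη
      have := hu v w (hvu.trans_le (min_le_right _ _)) (hwu.trans_le (min_le_right _ _)) k
      linarith
    linarith

end md

end Vale.Agent.P233.H900
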