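import Vale.Agent.P233.H900.Md

/-!
# Kirchheim's theorem: degenerate part and bi-Lipschitz pieces

helper900, P233 project RCDA, block G8.
-/

open MeasureTheory Set Filter Metric Topology Module
open scoped NNReal ENNReal RealInnerProductSpace

namespace Vale.Agent.P233.H900

section image

variable {X Y Z : Type*} [PseudoMetricSpace X] [MetricSpace Y] [MeasurableSpace Y] [BorelSpace Y]
  [MetricSpace Z] [MeasurableSpace Z] [BorelSpace Z]

/-- If `f` is dominated by `g` on `A` then the Hausdorff measure of `f '' A` is at most the one of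
`g '' A` (times the constant). -/
lemma hausdorff_image_le {X : Type*} {f : X → Y} {g : X → Z} {A : Set X} {K : ℝ≥0}
    (h : ∀ v ∈ A, ∀ w ∈ A, dist (f v) (f w) ≤ K * dist (g v) (g w)) {d : ℝ} (hd : 0 ≤ d) :
    μH[d] (f '' A) ≤ (K : ℝ≥0∞) ^ d * μH[d] (g '' A) := by
  classical
  rcases A.eq_empty_or_nonempty with rfl | hne
  · simp
  have : Nonempty X := ⟨hne.some⟩
  let φ : Z → Y := fun z => f (Function.invFunOn g A z)
  have hinv : ∀ z ∈ g '' A, Function.invFunOn g A z ∈ A ∧ g (Function.invFunOn g A z) = z :=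
    fun z hz => Function.invFunOn_pos hz
  have hφ : LipschitzOnWith K φ (g '' A) := by
    refine LipschitzOnWith.of_dist_le_mul fun y hy z hz => ?_
    have h1 := hinv y hy
    have h2 := hinv z hz
    have h3 := h _ h1.1 _ h2.1
    rw [h1.2, h2.2] at h3
    exact h3
  have himg : φ '' (g '' A) = f '' A := by
    rw [image_image]
    refine image_congr fun v hv => ?_
    have h1 := hinv (g v) (mem_image_of_mem g hv)
    have h3 := h _ h1.1 _ hv
    rw [h1.2, dist_self, mul_zero] at h3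
    exact dist_le_zero.1 h3
  rw [← himg]
  exact hφ.hausdorffMeasure_image_le hd

end image

section degenerate

variable {E : Type*} [NormedAddCommGroup E] [InnerProductSpace ℝ E] [FiniteDimensional ℝ E]
  [MeasurableSpace E] [BorelSpace E]
  {M : Type*} [MetricSpace M] [MeasurableSpace M] [BorelSpace M]

/-- A map that is `ε`-collapsed in the direction `e`. -/
lemma piece_le {A : Set E} {h : E → M} {e : E} (he : ‖e‖ = 1) {ε L' : ℝ} (hε : 0 < ε)
    (hL' : 0 < L')
    (hA : ∀ v ∈ A, ∀ w ∈ A, dist (h v) (h w) ≤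
      ε * |⟪e, v - w⟫| + L' * ‖(v - w) - ⟪e, v - w⟫ • e‖) :
    μH[(finrank ℝ E : ℝ)] (h '' A) ≤
      ENNReal.ofReal ((2 * L') ^ finrank ℝ E * (ε / L')) * μH[(finrank ℝ E : ℝ)] A := by
  let f : Module.Dual ℝ E := (innerSL ℝ e : E →L[ℝ] ℝ).toLinearMap
  have hf : ∀ x, f x = ⟪e, x⟫ := fun x => rfl
  let T : E →ₗ[ℝ] E := (2 * L') • LinearMap.transvection f ((ε / L' - 1) • e)
  have hT : ∀ x, T x = (2 * L') • (x + ⟪e, x⟫ • ((ε / L' - 1) • e)) := fun x => by
    simp [T, LinearMap.transvection.apply, hf]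
  have hdet : LinearMap.det T = (2 * L') ^ finrank ℝ E * (ε / L') := by
    have hee : ⟪e, e⟫ = 1 := by rw [real_inner_self_eq_norm_sq, he, one_pow]
    simp only [T]
    rw [LinearMap.det_smul, LinearMap.transvection.det, hf, inner_smul_right, hee]
    ring
  have hnorm : ∀ x : E, ε * |⟪e, x⟫| + L' * ‖x - ⟪e, x⟫ • e‖ ≤ ‖T x‖ := by
    intro x
    set p := x - ⟪e, x⟫ • e with hp
    have hTx : T x = (2 * ε * ⟪e, x⟫) • e + (2 * L') • p := by
      rw [hT, hp]
      have : 2 * L' * (ε / L' - 1) = 2 * ε - 2 * L' := by field_simp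
      rw [smul_add, smul_smul, smul_smul, smul_sub, smul_smul]
      have e2 : (2 * L' * ⟪e, x⟫ * (ε / L' - 1)) = 2 * ε * ⟪e, x⟫ - 2 * L' * ⟪e, x⟫ := by
        calc (2 * L' * ⟪e, x⟫ * (ε / L' - 1)) = (2 * L' * (ε / L' - 1)) * ⟪e, x⟫ := by ring
          _ = _ := by rw [this]; ring
      rw [e2, sub_smul]
      abel
    have horth : ⟪e, p⟫ = 0 := by
      rw [hp, inner_sub_right, inner_smul_right, real_inner_self_eq_norm_sq, he]; ring
    have hsq : ‖T x‖ ^ 2 = (2 * ε * ⟪e, x⟫) ^ 2 + (2 * L') ^ 2 * ‖p‖ ^ 2 := by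
      rw [hTx, @norm_add_sq_real, inner_smul_left, inner_smul_right, horth, norm_smul, norm_smul,
        he]
      simp only [Real.norm_eq_abs, mul_pow, sq_abs]
      simp
    have hnn : 0 ≤ ε * |⟪e, x⟫| + L' * ‖p‖ := by positivity
    refine abs_le_of_sq_le_sq' ?_ (norm_nonneg _) |>.2
    rw [hsq]
    have : (2 * ε * ⟪e, x⟫) ^ 2 = 4 * (ε * |⟪e, x⟫|) ^ 2 := by
      rw [mul_pow ε, sq_abs]; ring
    rw [this]
    nlinarith [sq_nonneg (ε * |⟪e, x⟫| - L' * ‖p‖), sq_nonneg (ε * |⟪e, x⟫|),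
      sq_nonneg (L' * ‖p‖)]
  have h1 : μH[(finrank ℝ E : ℝ)] (h '' A) ≤ μH[(finrank ℝ E : ℝ)] (T '' A) := by
    have := hausdorff_image_le (f := h) (g := T) (A := A) (K := 1) (d := (finrank ℝ E : ℝ))
      (fun v hv w hw => by
        refine (hA v hv w hw).trans ?_
        rw [dist_eq_norm, ← map_sub, NNReal.coe_one, one_mul]
        exact hnorm _) (by positivity)
    simpa using this
  refine h1.trans ?_
  rw [Measure.addHaar_image_linearMap, hdet, abs_of_pos (by positivity)]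

omit [MeasurableSpace E] [BorelSpace E] [FiniteDimensional ℝ E] in
lemma Nu_split {a : ℕ → E → ℝ} {L : ℝ≥0} (ha : ∀ k, LipschitzWith L (a k)) (u e x : E) :
    Nu a u x ≤ |⟪e, x⟫| * Nu a u e + L * ‖x - ⟪e, x⟫ • e‖ := by
  have h1 := Nu_sub_le ha u x (⟪e, x⟫ • e)
  rw [Nu_smul] at h1
  exact h1

/-- The image of the degenerate set is a null set. -/
theorem degenerate {S : Set E} {h : E → M} {L : ℝ≥0} {a : ℕ → E → ℝ}
    (ha : ∀ k, LipschitzWith L (a k)) :
    μH[(finrank ℝ E : ℝ)] (h '' {u | u ∈ S ∧ Md S h u (Nu a u) ∧ ∃ v, v ≠ 0 ∧ Nu a u v = 0}) = 0 := by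
  have hprop : ProperSpace E := FiniteDimensional.proper ℝ E
  set Z : Set E := {u | u ∈ S ∧ Md S h u (Nu a u) ∧ ∃ v, v ≠ 0 ∧ Nu a u v = 0} with hZ
  rcases Z.eq_empty_or_nonempty with h0 | ⟨u₀, hu₀⟩
  · rw [h0]; simp
  obtain ⟨v₀, hv₀, -⟩ := hu₀.2.2
  -- dense sequence in the unit sphere
  have hsph : Nonempty (sphere (0 : E) 1) := by
    refine ⟨⟨‖v₀‖⁻¹ • v₀, ?_⟩⟩
    rw [mem_sphere_zero_iff_norm, norm_smul, norm_inv, norm_norm,
      inv_mul_cancel₀ (norm_ne_zero_iff.2 hv₀)]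
  obtain ⟨es, hes⟩ := TopologicalSpace.exists_dense_seq (sphere (0 : E) 1)
  obtain ⟨xs, hxs⟩ := TopologicalSpace.exists_dense_seq E
  set μ : Measure E := μH[(finrank ℝ E : ℝ)] with hμ
  have : μ.IsAddHaarMeasure := isAddHaarMeasure_hausdorffMeasure
  have hL0 : (0 : ℝ) ≤ L := L.2
  set C : ℝ := (2 * ((L : ℝ) + 1)) ^ finrank ℝ E * (2 / ((L : ℝ) + 1)) with hC
  have hC0 : 0 ≤ C := by positivity
  -- main estimate
  have main : ∀ R : ℕ, ∀ ε : ℝ, 0 < ε → ε ≤ 1 →
      μH[(finrank ℝ E : ℝ)] (h '' (Z ∩ ball 0 R)) ≤ ENNReal.ofReal (ε * C) * μ (ball 0 R) := by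
    intro R ε hε hε1
    let F : ℕ → Set E := fun i => {u | u ∈ Z ∩ ball 0 R ∧ ∀ w ∈ S, ‖w - u‖ < 1 / ((i : ℝ) + 1) →
      dist (h u) (h w) ≤ Nu a u (u - w) + ε * ‖u - w‖}
    have hFmono : Monotone F := by
      intro i j hij u hu
      refine ⟨hu.1, fun w hw hwu => hu.2 w hw (hwu.trans_le ?_)⟩
      exact Nat.one_div_le_one_div hij
    have hFun : Z ∩ ball 0 R ⊆ ⋃ i, F i := by
      intro u hu
      obtain ⟨ρ, hρ, hmd⟩ := hu.1.2.1 ε hε
      obtain ⟨i, hi⟩ := exists_nat_one_div_lt hρ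
      refine mem_iUnion.2 ⟨i, hu, fun w hw hwu => ?_⟩
      have := hmd u hu.1.1 w hw (by simpa using hρ) (hwu.trans hi)
      rw [sub_self, norm_zero, zero_add, norm_sub_rev] at this
      linarith [(abs_le.1 this).2]
    have hstep : ∀ i, μH[(finrank ℝ E : ℝ)] (h '' F i) ≤ ENNReal.ofReal (ε * C) * μ (ball 0 R) := by
      intro i
      have hi1 : (0 : ℝ) < (i : ℝ) + 1 := by positivity
      let W : ℕ → Set E := fun k =>
        {u | Nu a u (es k.unpair.1 : E) ≤ ε} ∩ ball (xs k.unpair.2) (1 / (2 * ((i : ℝ) + 1)))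
      have hWm : ∀ k, MeasurableSet (W k) := fun k =>
        (measurableSet_le (measurable_Nu _) measurable_const).inter measurableSet_ball
      have hcov : F i ⊆ ⋃ k, W k := by
        intro u hu
        obtain ⟨v, hv, hNv⟩ := hu.1.1.2.2
        have hvn : 0 < ‖v‖ := norm_pos_iff.2 hv
        have hve : (‖v‖⁻¹ • v) ∈ sphere (0 : E) 1 := by
          rw [mem_sphere_zero_iff_norm, norm_smul, norm_inv, norm_norm,
            inv_mul_cancel₀ hvn.ne']
        obtain ⟨j, hj⟩ := hes.exists_dist_lt (⟨_, hve⟩ : sphere (0 : E) 1)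
          (show 0 < ε / ((L : ℝ) + 1) by positivity)
        obtain ⟨l, hl⟩ := hxs.exists_dist_lt u (show 0 < 1 / (2 * ((i : ℝ) + 1)) by positivity)
        refine mem_iUnion.2 ⟨Nat.pair j l, ?_, ?_⟩
        · simp only [Nat.unpair_pair, mem_ofPred_eq]
          have h1 := Nu_sub_le ha u (es j : E) (‖v‖⁻¹ • v)
          rw [Nu_smul, hNv, mul_zero, zero_add] at h1
          have h2 : ‖(es j : E) - ‖v‖⁻¹ • v‖ < ε / ((L : ℝ) + 1) := by
            rw [norm_sub_rev, ← dist_eq_norm]; exact hj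
          refine h1.trans ?_
          calc (L : ℝ) * ‖(es j : E) - ‖v‖⁻¹ • v‖ ≤ L * (ε / ((L : ℝ) + 1)) := by gcongr
            _ ≤ ε := by
              rw [mul_div_assoc', div_le_iff₀ (by positivity)]
              nlinarith
        · simp only [Nat.unpair_pair]
          exact hl
      have hD : ∀ k, μH[(finrank ℝ E : ℝ)] (h '' (F i ∩ disjointed W k)) ≤
          ENNReal.ofReal (ε * C) * μ (ball 0 R ∩ disjointed W k) := by
        intro k
        have hsub : F i ∩ disjointed W k ⊆ F i ∩ W k :=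
          inter_subset_inter_right _ (disjointed_subset W k)
        have hp := piece_le (A := F i ∩ disjointed W k) (h := h) (e := (es k.unpair.1 : E))
          (by simp) (ε := 2 * ε) (L' := (L : ℝ) + 1)
          (by positivity) (by positivity) ?_
        · refine hp.trans ?_
          have e1 : (2 * ((L : ℝ) + 1)) ^ finrank ℝ E * (2 * ε / ((L : ℝ) + 1)) = ε * C := by
            rw [hC]; ring
          rw [e1]
          gcongr
          exact fun u hu => hu.1.2
        · intro v hv w hw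
          have hv' := hsub hv
          have hw' := hsub hw
          have hvw : ‖w - v‖ < 1 / ((i : ℝ) + 1) := by
            have h1 := mem_ball.1 hv'.2.2
            have h2 := mem_ball.1 hw'.2.2
            have h3 := dist_triangle_right w v (xs k.unpair.2)
            rw [dist_eq_norm w v] at h3
            have h4 : 1 / (2 * ((i : ℝ) + 1)) + 1 / (2 * ((i : ℝ) + 1)) = 1 / ((i : ℝ) + 1) := by
              field_simp; norm_num
            linarith
          have h1 := hv'.1.2 w hw'.1.1.1.1 hvw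
          have h2 := Nu_split ha v (es k.unpair.1 : E) (v - w)
          have h3 : Nu a v (es k.unpair.1 : E) ≤ ε := hv'.2.1
          have h4 : ‖v - w‖ ≤ |⟪(es k.unpair.1 : E), v - w⟫| +
              ‖v - w - ⟪(es k.unpair.1 : E), v - w⟫ • (es k.unpair.1 : E)‖ := by
            have hn : ‖⟪(es k.unpair.1 : E), v - w⟫ • (es k.unpair.1 : E)‖ =
                |⟪(es k.unpair.1 : E), v - w⟫| := by
              rw [norm_smul, Real.norm_eq_abs]
              have : ‖(es k.unpair.1 : E)‖ = 1 := by simp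
              rw [this, mul_one]
            rw [← hn]
            have := norm_add_le (⟪(es k.unpair.1 : E), v - w⟫ • (es k.unpair.1 : E))
              (v - w - ⟪(es k.unpair.1 : E), v - w⟫ • (es k.unpair.1 : E))
            rwa [add_sub_cancel] at this
          set α := |⟪(es k.unpair.1 : E), v - w⟫|
          set β := ‖v - w - ⟪(es k.unpair.1 : E), v - w⟫ • (es k.unpair.1 : E)‖
          have hα : 0 ≤ α := abs_nonneg _
          have hβ : 0 ≤ β := norm_nonneg _
          nlinarith [mul_le_mul_of_nonneg_left h3 hα, mul_le_mul_of_nonneg_left h4 hε.le,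
            mul_le_mul_of_nonneg_right hε1 hβ]
      have hsub : h '' F i ⊆ ⋃ k, h '' (F i ∩ disjointed W k) := by
        rw [← image_iUnion, ← inter_iUnion, iUnion_disjointed, inter_eq_left.2 hcov]
      calc μH[(finrank ℝ E : ℝ)] (h '' F i) ≤ ∑' k, μH[(finrank ℝ E : ℝ)] (h '' (F i ∩ disjointed W k)) :=
            (measure_mono hsub).trans (measure_iUnion_le _)
        _ ≤ ∑' k, ENNReal.ofReal (ε * C) * μ (ball 0 R ∩ disjointed W k) :=
            ENNReal.tsum_le_tsum hD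
        _ = ENNReal.ofReal (ε * C) * ∑' k, μ (ball 0 R ∩ disjointed W k) := ENNReal.tsum_mul_left
        _ = ENNReal.ofReal (ε * C) * μ (⋃ k, ball 0 R ∩ disjointed W k) := by
            rw [measure_iUnion]
            · exact (disjoint_disjointed W).mono fun i j hij =>
                hij.mono inter_subset_right inter_subset_right
            · exact fun k => measurableSet_ball.inter (MeasurableSet.disjointed hWm k)
        _ ≤ ENNReal.ofReal (ε * C) * μ (ball 0 R) := by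
            gcongr
            exact iUnion_subset fun k => inter_subset_left
    calc μH[(finrank ℝ E : ℝ)] (h '' (Z ∩ ball 0 R)) ≤ μH[(finrank ℝ E : ℝ)] (⋃ i, h '' F i) := by
          rw [← image_iUnion]; exact measure_mono (image_mono hFun)
      _ = ⨆ i, μH[(finrank ℝ E : ℝ)] (h '' F i) :=
          Directed.measure_iUnion ((monotone_image.comp hFmono).directed_le)
      _ ≤ _ := iSup_le hstep
  have hR : ∀ R : ℕ, μH[(finrank ℝ E : ℝ)] (h '' (Z ∩ ball 0 R)) = 0 := by
    intro R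
    have hfin : μ (ball (0 : E) R) ≠ ⊤ := measure_ball_lt_top.ne
    have htend : Tendsto (fun k : ℕ => ENNReal.ofReal (1 / ((k : ℝ) + 1) * C) * μ (ball (0 : E) R))
        atTop (𝓝 0) := by
      have h1 : Tendsto (fun k : ℕ => 1 / ((k : ℝ) + 1) * C) atTop (𝓝 (0 * C)) :=
        tendsto_one_div_add_atTop_nhds_zero_nat.mul_const C
      rw [zero_mul] at h1
      have h2 := (ENNReal.tendsto_ofReal h1)
      rw [ENNReal.ofReal_zero] at h2
      have h3 := ENNReal.Tendsto.mul_const h2 (b := μ (ball (0 : E) R)) (Or.inr hfin)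
      rwa [zero_mul] at h3
    refine le_antisymm (ge_of_tendsto' htend fun k => ?_) (by simp)
    refine main R _ (by positivity) ?_
    rw [div_le_one (by positivity)]
    linarith [(Nat.cast_nonneg k : (0 : ℝ) ≤ (k : ℝ))]
  have hZun : h '' Z ⊆ ⋃ R : ℕ, h '' (Z ∩ ball 0 R) := by
    rw [← image_iUnion, ← inter_iUnion, iUnion_ball_nat, inter_univ]
  exact measure_mono_null hZun (measure_iUnion_null hR)

end degenerate

section pieces

variable {E : Type*} [NormedAddCommGroup E] [InnerProductSpace ℝ E] [FiniteDimensional ℝ E]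
  {M : Type*} [PseudoMetricSpace M]

set_option linter.unusedSectionVars false

/-- The pieces on which `h` is `(1 ± τ)`-bi-Lipschitz for a fixed seminorm. -/
def Pc (S : Set E) (h : E → M) (τ : ℝ) (N : E → ℝ) (δ : ℝ) (x : E) : Set E :=
  {u | u ∈ S ∧ dist u x ≤ δ / 3 ∧ ∀ w ∈ S, ‖w - u‖ < δ →
    (1 - τ) * N (u - w) ≤ dist (h u) (h w) ∧ dist (h u) (h w) ≤ (1 + τ) * N (u - w)}

lemma Pc_subset {S : Set E} {h : E → M} {τ : ℝ} {N : E → ℝ} {δ : ℝ} {x : E} :
    Pc S h τ N δ x ⊆ S := fun _ hu => hu.1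

lemma Pc_bilip {S : Set E} {h : E → M} {τ : ℝ} {N : E → ℝ} {δ : ℝ} (hδ : 0 < δ) {x : E} {v w : E}
    (hv : v ∈ Pc S h τ N δ x) (hw : w ∈ Pc S h τ N δ x) :
    (1 - τ) * N (v - w) ≤ dist (h v) (h w) ∧ dist (h v) (h w) ≤ (1 + τ) * N (v - w) := by
  refine hv.2.2 w hw.1 ?_
  rw [← dist_eq_norm]
  have := dist_triangle_right w v x
  linarith [hv.2.1, hw.2.1]

lemma Pc_isCompact {S : Set E} (hS : IsClosed S) {h : E → M} (hh : ContinuousOn h S) {τ : ℝ}
    {N : E → ℝ} (hN : Continuous N) {δ : ℝ} {x : E} : IsCompact (Pc S h τ N δ x) := by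
  have hprop : ProperSpace E := FiniteDimensional.proper ℝ E
  refine Metric.isCompact_of_isClosed_isBounded ?_ ?_
  · rw [← isSeqClosed_iff_isClosed]
    intro u u₀ hu hlim
    have hu₀S : u₀ ∈ S := hS.mem_of_tendsto hlim (Eventually.of_forall fun k => (hu k).1)
    have hhlim : Tendsto (fun k => h (u k)) atTop (𝓝 (h u₀)) :=
      (hh u₀ hu₀S).tendsto.comp
        (tendsto_nhdsWithin_iff.2 ⟨hlim, Eventually.of_forall fun k => (hu k).1⟩)
    refine ⟨hu₀S, ?_, fun w hw hwu => ?_⟩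
    · exact le_of_tendsto (hlim.dist tendsto_const_nhds) (Eventually.of_forall fun k => (hu k).2.1)
    · have hev : ∀ᶠ k in atTop, ‖w - u k‖ < δ :=
        ((tendsto_const_nhds.sub hlim).norm).eventually (gt_mem_nhds hwu)
      have hN' : Tendsto (fun k => N (u k - w)) atTop (𝓝 (N (u₀ - w))) :=
        (hN.tendsto _).comp (hlim.sub_const w)
      have hd : Tendsto (fun k => dist (h (u k)) (h w)) atTop (𝓝 (dist (h u₀) (h w))) :=
        hhlim.dist tendsto_const_nhds
      constructor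
      · exact le_of_tendsto_of_tendsto (hN'.const_mul _) hd
          (hev.mono fun k hk => ((hu k).2.2 w hw hk).1)
      · exact le_of_tendsto_of_tendsto hd (hN'.const_mul _)
          (hev.mono fun k hk => ((hu k).2.2 w hw hk).2)
  · refine (isBounded_closedBall (x := x) (r := δ / 3)).subset fun u hu => ?_
    exact hu.2.1

/-- A family of non-degenerate seminorms, uniformly bounded: every one of them is within `η` of one
of countably many. -/
lemma exists_countable_norms {a : ℕ → E → ℝ} {L : ℝ≥0} (ha : ∀ k, LipschitzWith L (a k))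
    (G : Set E) : ∃ T : Set E, T ⊆ G ∧ T.Countable ∧
      ∀ u ∈ G, ∀ η > 0, ∃ t ∈ T, ∀ v, |Nu a u v - Nu a t v| ≤ η * ‖v‖ := by
  have hprop : ProperSpace E := FiniteDimensional.proper ℝ E
  let F : E → C(sphere (0 : E) 1, ℝ) := fun u =>
    ⟨fun v => Nu a u v, (continuous_Nu ha u).comp continuous_subtype_val⟩
  have hsep : TopologicalSpace.IsSeparable (F '' G) := TopologicalSpace.IsSeparable.of_separableSpace _
  obtain ⟨D, hDG, hDc, hGD⟩ := hsep.exists_countable_dense_subset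
  choose! g hgG hg using fun f (hf : f ∈ F '' G) => hf
  refine ⟨g '' D, ?_, hDc.image g, ?_⟩
  · rintro _ ⟨f, hf, rfl⟩
    exact hgG f (hDG hf)
  · intro u hu η hη
    obtain ⟨f, hf, hdist⟩ := Metric.mem_closure_iff.1 (hGD (mem_image_of_mem F hu)) η hη
    refine ⟨g f, mem_image_of_mem g hf, fun v => ?_⟩
    rcases eq_or_ne v 0 with rfl | hv
    · have h0 : ∀ z : E, Nu a z 0 = 0 := fun z => by
        have := Nu_smul (a := a) 0 z (0 : E)
        simpa using this
      rw [h0, h0]; simp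
    · have hv' : 0 < ‖v‖ := norm_pos_iff.2 hv
      have hmem : (‖v‖⁻¹ • v) ∈ sphere (0 : E) 1 := by
        rw [mem_sphere_zero_iff_norm, norm_smul, norm_inv, norm_norm, inv_mul_cancel₀ hv'.ne']
      have h1 := (ContinuousMap.dist_lt_iff hη).1 hdist ⟨_, hmem⟩
      rw [← hg f (hDG hf), Real.dist_eq] at h1
      change |Nu a u (‖v‖⁻¹ • v) - Nu a (g f) (‖v‖⁻¹ • v)| < η at h1
      rw [Nu_smul, Nu_smul, ← mul_sub, abs_mul, abs_abs, abs_inv, abs_norm,
        inv_mul_lt_iff₀ hv'] at h1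
      linarith

/-- a seminorm without kernel is a norm -/
lemma exists_low {a : ℕ → E → ℝ} {L : ℝ≥0} (ha : ∀ k, LipschitzWith L (a k)) {u : E}
    (hu : ∀ v, v ≠ 0 → Nu a u v ≠ 0) : ∃ c > 0, ∀ v, c * ‖v‖ ≤ Nu a u v := by
  have hprop : ProperSpace E := FiniteDimensional.proper ℝ E
  rcases (sphere (0 : E) 1).eq_empty_or_nonempty with hemp | hne
  · refine ⟨1, one_pos, fun v => ?_⟩
    have hv : v = 0 := by
      by_contra hv
      have hmem : (‖v‖⁻¹ • v) ∈ sphere (0 : E) 1 := by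
        rw [mem_sphere_zero_iff_norm, norm_smul, norm_inv, norm_norm,
          inv_mul_cancel₀ (norm_ne_zero_iff.2 hv)]
      rw [hemp] at hmem
      exact hmem
    rw [hv, norm_zero, mul_zero]
    exact Nu_nonneg _ _
  · obtain ⟨e, he, hmin⟩ := (isCompact_sphere (0 : E) 1).exists_isMinOn hne
      (continuous_Nu ha u).continuousOn
    have he0 : e ≠ 0 := by
      rintro rfl
      simp at he
    have hpos : 0 < Nu a u e := lt_of_le_of_ne (Nu_nonneg _ _) (hu e he0).symm
    refine ⟨Nu a u e, hpos, fun v => ?_⟩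
    rcases eq_or_ne v 0 with rfl | hv
    · rw [norm_zero, mul_zero]; exact Nu_nonneg _ _
    · have hv' : 0 < ‖v‖ := norm_pos_iff.2 hv
      have hmem : (‖v‖⁻¹ • v) ∈ sphere (0 : E) 1 := by
        rw [mem_sphere_zero_iff_norm, norm_smul, norm_inv, norm_norm, inv_mul_cancel₀ hv'.ne']
      have h1 := hmin hmem
      rw [mem_ofPred_eq, Nu_smul, abs_inv, abs_norm, le_inv_mul_iff₀ hv'] at h1
      linarith

/-- The non-degenerate points of metric differentiability are covered by countably many pieces. -/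
lemma exists_pieces {S : Set E} {h : E → M} {L : ℝ≥0} {a : ℕ → E → ℝ}
    (ha : ∀ k, LipschitzWith L (a k)) {τ : ℝ} (hτ : 0 < τ) :
    ∃ (P : ℕ → Set E) (N : ℕ → Seminorm ℝ E),
      (∀ j, ∃ c > 0, ∀ v, c * ‖v‖ ≤ N j v) ∧ (∀ j v, N j v ≤ (L + 1) * ‖v‖) ∧
      (∀ j, P j ⊆ S) ∧ (IsClosed S → ContinuousOn h S → ∀ j, IsCompact (P j)) ∧
      (∀ j, ∀ v ∈ P j, ∀ w ∈ P j, (1 - τ) * N j (v - w) ≤ dist (h v) (h w) ∧
        dist (h v) (h w) ≤ (1 + τ) * N j (v - w)) ∧
      {u | u ∈ S ∧ Md S h u (Nu a u) ∧ ∀ v, v ≠ 0 → Nu a u v ≠ 0} ⊆ ⋃ j, P j := by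
  have hprop : ProperSpace E := FiniteDimensional.proper ℝ E
  set G : Set E := {u | u ∈ S ∧ Md S h u (Nu a u) ∧ ∀ v, v ≠ 0 → Nu a u v ≠ 0} with hG
  have hlow : ∀ u ∈ G, ∃ c > 0, ∀ v, c * ‖v‖ ≤ Nu a u v := fun u hu => exists_low ha hu.2.2
  obtain ⟨T, hTG, hTc, hT⟩ := exists_countable_norms ha G
  obtain ⟨xs, hxs⟩ := TopologicalSpace.exists_dense_seq E
  rcases T.eq_empty_or_nonempty with hTe | hTne
  · refine ⟨fun _ => ∅, fun _ => normSeminorm ℝ E, fun _ => ⟨1, one_pos, fun v => by simp⟩,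
      fun _ v => ?_, fun _ => empty_subset _, fun _ _ _ => isCompact_empty, by simp, ?_⟩
    · change ‖v‖ ≤ _
      have : (0 : ℝ) ≤ L := L.2
      nlinarith [norm_nonneg v]
    · intro u hu
      obtain ⟨t, ht, -⟩ := hT u hu 1 one_pos
      rw [hTe] at ht
      exact absurd ht (notMem_empty t)
  obtain ⟨ts, hts⟩ := hTc.exists_eq_range hTne
  have htsG : ∀ k, ts k ∈ G := fun k => hTG (hts ▸ mem_range_self k)
  refine ⟨fun j => Pc S h τ (Nu a (ts j.unpair.1)) (1 / ((j.unpair.2.unpair.1 : ℝ) + 1))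
      (xs j.unpair.2.unpair.2), fun j => NuS ha (ts j.unpair.1), fun j => hlow _ (htsG _),
      fun j v => ?_, fun j => Pc_subset,
      fun hS hh j => Pc_isCompact hS hh (continuous_Nu ha _),
      fun j v hv w hw => Pc_bilip (by positivity) hv hw, ?_⟩
  · refine (Nu_le_norm ha _ v).trans ?_
    nlinarith [norm_nonneg v]
  · intro u hu
    obtain ⟨c, hc, hlc⟩ := hlow u hu
    set η := min (c / 2) (τ * c / 4) with hη
    have hη0 : 0 < η := lt_min (by positivity) (by positivity)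
    have hη1 : η ≤ c / 2 := min_le_left _ _
    have hη2 : η ≤ τ * c / 4 := min_le_right _ _
    obtain ⟨t, htT, ht⟩ := hT u hu η hη0
    rw [hts] at htT
    obtain ⟨k, rfl⟩ := htT
    obtain ⟨ρ, hρ, hmd⟩ := hu.2.1 η hη0
    obtain ⟨i, hi⟩ := exists_nat_one_div_lt hρ
    obtain ⟨l, hl⟩ := hxs.exists_dist_lt u (show 0 < 1 / ((i : ℝ) + 1) / 3 by positivity)
    refine mem_iUnion.2 ⟨Nat.pair k (Nat.pair i l), ?_⟩
    simp only [Nat.unpair_pair]
    refine ⟨hu.1, hl.le, fun w hw hwu => ?_⟩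
    have h1 := hmd u hu.1 w hw (by simpa using hρ) (hwu.trans hi)
    rw [sub_self, norm_zero, zero_add, norm_sub_rev] at h1
    have h2 := ht (u - w)
    have h3 := hlc (u - w)
    have h1' := abs_le.1 h1
    have h2' := abs_le.1 h2
    have h4 : c / 2 * ‖u - w‖ ≤ Nu a (ts k) (u - w) := by
      nlinarith [norm_nonneg (u - w)]
    have h5 : 2 * η * ‖u - w‖ ≤ τ * Nu a (ts k) (u - w) := by
      calc 2 * η * ‖u - w‖ ≤ τ * (c / 2 * ‖u - w‖) := by nlinarith [norm_nonneg (u - w)]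
        _ ≤ _ := by gcongr
    constructor <;> nlinarith

end pieces

section main

variable {E : Type*} [NormedAddCommGroup E] [InnerProductSpace ℝ E] [FiniteDimensional ℝ E]
  [MeasurableSpace E] [BorelSpace E]
  {M : Type*} [MetricSpace M] [MeasurableSpace M] [BorelSpace M]

/-- **Kirchheim's theorem, metric differentials.** `S` is an arbitrary set. -/
theorem exists_metricDifferential {S : Set E} {h : E → M} {L : ℝ≥0} (hh : LipschitzOnWith L h S) :
    ∃ N : E → Seminorm ℝ E, (∀ u v, N u v ≤ L * ‖v‖) ∧ (∀ v, Measurable fun u => N u v) ∧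
      (∀ᵐ u ∂(μH[(finrank ℝ E : ℝ)] : Measure E), Md S h u (N u)) ∧
      μH[(finrank ℝ E : ℝ)] (h '' {u | u ∈ S ∧
        ¬ (Md S h u (N u) ∧ ∃ c > 0, ∀ v, c * ‖v‖ ≤ N u v)}) = 0 := by
  have hprop : ProperSpace E := FiniteDimensional.proper ℝ E
  obtain ⟨a, ha, h1, h2⟩ := exists_family hh
  have hHaar : (μH[(finrank ℝ E : ℝ)] : Measure E).IsAddHaarMeasure :=
    isAddHaarMeasure_hausdorffMeasure
  have hmd := ae_md (μ := (μH[(finrank ℝ E : ℝ)] : Measure E)) ha h1 h2
  refine ⟨NuS ha, fun u v => Nu_le_norm ha u v, fun v => measurable_Nu v, hmd, ?_⟩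
  have hsub : {u | u ∈ S ∧ ¬ (Md S h u (NuS ha u) ∧ ∃ c > 0, ∀ v, c * ‖v‖ ≤ NuS ha u v)} ⊆
      (S ∩ {u | ¬ Md S h u (Nu a u)}) ∪
        {u | u ∈ S ∧ Md S h u (Nu a u) ∧ ∃ v, v ≠ 0 ∧ Nu a u v = 0} := by
    rintro u ⟨huS, hu⟩
    by_cases hM : Md S h u (Nu a u)
    · right
      refine ⟨huS, hM, ?_⟩
      by_contra hcon
      push Not at hcon
      exact hu ⟨hM, exists_low ha hcon⟩
    · left
      exact ⟨huS, hM⟩
  refine measure_mono_null (image_mono hsub) ?_
  rw [image_union]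
  refine measure_union_null ?_ (degenerate ha)
  have h3 := (hh.mono (inter_subset_left (t := {u | ¬ Md S h u (Nu a u)}))).hausdorffMeasure_image_le
    (d := (finrank ℝ E : ℝ)) (by positivity)
  have h4 : μH[(finrank ℝ E : ℝ)] (S ∩ {u | ¬ Md S h u (Nu a u)}) = 0 :=
    measure_mono_null inter_subset_right hmd
  rw [h4, mul_zero] at h3
  exact le_antisymm h3 (by simp)

/-- **Kirchheim's theorem, bi-Lipschitz pieces.** `S` is an arbitrary set; the pieces are compact if
`S` is closed. -/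
theorem kirchheim {S : Set E} {h : E → M} {L : ℝ≥0} (hh : LipschitzOnWith L h S) {τ : ℝ}
    (hτ : 0 < τ) :
    ∃ (P : ℕ → Set E) (N : ℕ → Seminorm ℝ E),
      (∀ j, ∃ c > 0, ∀ v, c * ‖v‖ ≤ N j v) ∧ (∀ j v, N j v ≤ (L + 1) * ‖v‖) ∧
      (∀ j, P j ⊆ S) ∧ (IsClosed S → ∀ j, IsCompact (P j)) ∧
      (∀ j, ∀ v ∈ P j, ∀ w ∈ P j, (1 - τ) * N j (v - w) ≤ dist (h v) (h w) ∧
        dist (h v) (h w) ≤ (1 + τ) * N j (v - w)) ∧
      μH[(finrank ℝ E : ℝ)] (h '' (S \ ⋃ j, P j)) = 0 := by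
  have hprop : ProperSpace E := FiniteDimensional.proper ℝ E
  obtain ⟨a, ha, h1, h2⟩ := exists_family hh
  have hHaar : (μH[(finrank ℝ E : ℝ)] : Measure E).IsAddHaarMeasure :=
    isAddHaarMeasure_hausdorffMeasure
  have hmd := ae_md (μ := (μH[(finrank ℝ E : ℝ)] : Measure E)) ha h1 h2
  obtain ⟨P, N, hN1, hN2, hPS, hPc, hPb, hcov⟩ := exists_pieces (S := S) (h := h) ha hτ
  refine ⟨P, N, hN1, hN2, hPS, fun hS => hPc hS hh.continuousOn, hPb, ?_⟩
  have hsub : S \ ⋃ j, P j ⊆ (S ∩ {u | ¬ Md S h u (Nu a u)}) ∪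
        {u | u ∈ S ∧ Md S h u (Nu a u) ∧ ∃ v, v ≠ 0 ∧ Nu a u v = 0} := by
    rintro u ⟨huS, hu⟩
    by_cases hM : Md S h u (Nu a u)
    · right
      refine ⟨huS, hM, ?_⟩
      by_contra hcon
      push Not at hcon
      exact hu (hcov ⟨huS, hM, hcon⟩)
    · left
      exact ⟨huS, hM⟩
  refine measure_mono_null (image_mono hsub) ?_
  rw [image_union]
  refine measure_union_null ?_ (degenerate ha)
  have h3 := (hh.mono (inter_subset_left (t := {u | ¬ Md S h u (Nu a u)}))).hausdorffMeasure_image_le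
    (d := (finrank ℝ E : ℝ)) (by positivity)
  have h4 : μH[(finrank ℝ E : ℝ)] (S ∩ {u | ¬ Md S h u (Nu a u)}) = 0 :=
    measure_mono_null inter_subset_right hmd
  rw [h4, mul_zero] at h3
  exact le_antisymm h3 (by simp)

end main

end Vale.Agent.P233.H900
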